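import Vale.Agent.P331.H489.Ex

/-!
# One level of the rule: definitions

Labels of one level: `v` (test), `h` (the list set of the level below), `d` and `r` (of which a
random half is used), `o` (others), and `inr x`: the region of the lists of the level, `x i` says
whether the element is in the `i`-th set of the list.
-/

set_option autoImplicit false
set_option linter.unusedSectionVars false

namespace Vale.Agent.P331.H367

open Finset Vale.Agent.P331.H489
open scoped Classical

/-- labels of one level without the region of the lists -/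
inductive C5 | v | h | d | r | o
  deriving DecidableEq

instance : Fintype C5 := ⟨{.v, .h, .d, .r, .o}, by intro x; cases x <;> decide⟩

theorem sum_C5 (f : C5 → ℝ) : ∑ l, f l = f .v + f .h + f .d + f .r + f .o := by
  have h : (univ : Finset C5) = {.v, .h, .d, .r, .o} := rfl
  rw [h, sum_insert (by decide), sum_insert (by decide), sum_insert (by decide),
    sum_insert (by decide), sum_singleton]
  ring

/-- labels of one level -/
abbrev Lb (M : ℕ) := C5 ⊕ (Fin M → Bool)

section

variable {E : Type*} [Fintype E] [DecidableEq E] {M : ℕ}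

/-- hypotheses on the weights of one level; `lam0` is the ratio of the rates of `h` and `v` -/
structure Good (lam0 : ℝ) (q : E → ℝ) (w : E → Lb M → ℝ) : Prop where
  nonneg : ∀ e l, 0 ≤ w e l
  sum_one : ∀ e, ∑ l, w e l = 1
  vh : ∀ e, lam0 * w e (.inl .v) ≤ w e (.inl .h)
  d : ∀ e, w e (.inl .d) = 2 * w e (.inl .h)
  r : ∀ e, 40000 * w e (.inl .h) ≤ w e (.inl .r)
  x : ∀ e x, w e (.inr x) = q e / 2 ^ M

/-- the rate of the natural set at which the influences are taken -/
noncomputable def rate (q : E → ℝ) (w : E → Lb M → ℝ) (e : E) : ℝ :=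
  w e (.inl .r) / 2 + w e (.inl .h) + q e / 2

/-- `b` is pivotal for the up-set `D` at `P` -/
def pivD (D : (E → Prop) → Prop) (b : E) (P : E → Prop) : Prop :=
  D (fun e => e = b ∨ P e) ∧ ¬ D (fun e => e ≠ b ∧ P e)

/-- the influence -/
noncomputable def Jw (D : (E → Prop) → Prop) (b : E) (t : E → ℝ) : ℝ :=
  EX (fun e (l : Bool) => if l = true then t e else 1 - t e)
    (fun ω => if pivD D b (fun e => ω e = true) then 1 else 0)

/-- the functional of the level -/
noncomputable def Fn (D : (E → Prop) → Prop) (ω : E → Lb M) (i : Fin M) (Y : Finset E) : ℝ :=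
  EX (fun _ _ => 1 / 2) fun s : E → Bool =>
    if D (fun e => e ∈ Y ∨ (∃ x, ω e = .inr x ∧ x i = true) ∨
      ((ω e = .inl .d ∨ ω e = .inl .r) ∧ s e = true)) then 0 else 1

/-- the functional of the level below -/
noncomputable def Fp (D : (E → Prop) → Prop) (ω : E → Lb M) (Y : Finset E) : ℝ :=
  EX (fun _ _ => 1 / 2) fun s : E → Bool =>
    if D (fun e => e ∈ Y ∨ ω e = .inl .h ∨
      (((∃ x, ω e = .inr x) ∨ ω e = .inl .r) ∧ s e = true)) then 0 else 1

/-- `b` lies in a minimal set of the level -/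
def LevMin (D : (E → Prop) → Prop) (b : E) (k L : ℕ) (ω : E → Lb M) (X : Finset E) : Prop :=
  b ∈ X ∧ (∀ e ∈ X, e ≠ b → ω e = .inl .v) ∧
    (∀ i, ∃ Y ⊆ X, Y.card ≤ k ∧ Fn D ω i Y ≤ 1 / 2 ^ (L + Y.card)) ∧
    ∃ i, ∀ Y ⊆ X.erase b, Y.card ≤ k → 1 / 2 ^ (L + Y.card) < Fn D ω i Y

/-- the event of the first level -/
def LevOne (D : (E → Prop) → Prop) (b : E) (k L : ℕ) (ω : E → Lb M) : Prop :=
  ∃ X : Finset E, LevMin D b k L ω X

/-- the event of a level with the level below -/
def LevEv (D : (E → Prop) → Prop) (b : E) (k L k' L' : ℕ) (ω : E → Lb M) : Prop :=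
  ∃ X : Finset E, LevMin D b k L ω X ∧
    ∀ Y ⊆ X, Y.card ≤ k' → 1 / 2 ^ (L' + Y.card) < Fp D ω Y

end

/-- the bound for the first level -/
def LevelOneThm : Prop := ∀ (E : Type) [Fintype E] [DecidableEq E] (M : ℕ) (lam0 : ℝ)
  (q : E → ℝ) (w : E → Lb M → ℝ), 1 ≤ lam0 → Good lam0 q w →
  ∀ D : (E → Prop) → Prop, (∀ P P' : E → Prop, (∀ e, P e → P' e) → D P → D P') →
  ∀ (b : E) (k L : ℕ),
    EX w (fun ω => if LevOne D b k L ω then 1 else 0) ≤
      M * 4 ^ (L + 2 * k) * Jw D b (rate q w)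

/-- the bound for the other levels -/
def LevelThm : Prop := ∀ (E : Type) [Fintype E] [DecidableEq E] (M : ℕ) (lam0 : ℝ)
  (q : E → ℝ) (w : E → Lb M → ℝ), 1 ≤ lam0 → Good lam0 q w →
  ∀ D : (E → Prop) → Prop, (∀ P P' : E → Prop, (∀ e, P e → P' e) → D P → D P') →
  ∀ (b : E) (k L k' L' : ℕ), 1 ≤ k' →
    EX w (fun ω => if LevEv D b k L k' L' ω then 1 else 0) ≤
      (M * 4 ^ (L + 2 * k) * ((1 / lam0) ^ k' + (1 - 1 / 2 ^ (L' + k' + 1)) ^ (M - 1)) +
        (M : ℝ) ^ 2 * (2 ^ (7 * k + 8 * (L' + k') + 16) / 2 ^ L)) * Jw D b (rate q w)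

end Vale.Agent.P331.H367
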