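import Mathlib

/-!
# The one-coordinate inequality
-/

set_option autoImplicit false

namespace Vale.Agent.P331.H367

theorem titu {A C B D : ℝ} (hC : 0 < C) (hD : 0 < D) :
    ((A + B) / 2) ^ 2 / ((C + D) / 2) ≤ (A ^ 2 / C + B ^ 2 / D) / 2 := by
  rw [div_add_div _ _ hC.ne' hD.ne', div_div, div_le_div_iff₀ (by linarith) (by positivity)]
  nlinarith [mul_nonneg (mul_pos hC hD).le (sq_nonneg (A * D - B * C)),
    sq_nonneg (A * D - B * C), mul_pos hC hD]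

theorem titu_gap {b g : ℝ} (hg : 0 < g) (hg1 : g ≤ 1) :
    ((1 + b) / 2) ^ 2 / ((1 + g) / 2) ≤ (1 + b ^ 2 / g) / 2 - (g - b) ^ 2 / 4 := by
  have h1 : ((1 + b) / 2) ^ 2 / ((1 + g) / 2) =
      (1 + b ^ 2 / g) / 2 - (g - b) ^ 2 / (2 * g * (1 + g)) := by
    field_simp
    ring
  rw [h1]
  have h2 : (g - b) ^ 2 / 4 ≤ (g - b) ^ 2 / (2 * g * (1 + g)) := by
    apply div_le_div_of_nonneg_left (sq_nonneg _) (by positivity)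
    nlinarith
  linarith

theorem gap {b g : ℝ} (hb : 0 ≤ b) (hb1 : b ≤ 1) (hg : 0 < g) (hg1 : g ≤ 1) :
    ((1 + b) / 2) ^ 8 / ((1 + g) / 2) ^ 3 ≤
      (1 + b ^ 8 / g ^ 3) / 2 - (1 - b) ^ 2 / 32 - (1 - g) ^ 2 / 256 := by
  set G : ℝ := (1 + g) / 2 with hG
  have hG0 : 0 < G := by rw [hG]; linarith
  have hG1 : G ≤ 1 := by rw [hG]; linarith
  have hG2 : 1 ≤ 1 / G := by rw [le_div_iff₀ hG0]; linarith
  set W : ℝ := ((1 + b) / 2) ^ 2 with hW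
  have hW0 : 0 ≤ W := sq_nonneg _
  have hW1 : W = (1 + b ^ 2) / 2 - (1 - b) ^ 2 / 4 := by rw [hW]; ring
  set e : ℝ := (g - b ^ 2) ^ 2 / 4 + (1 - b) ^ 2 / 8 with he
  have he0 : 0 ≤ e := by positivity
  set Z : ℝ := W ^ 2 / G with hZ
  have hZ0 : 0 ≤ Z := by positivity
  have hb2 : 0 ≤ b ^ 2 := sq_nonneg b
  have hm1 : 0 ≤ b ^ 4 / g := by positivity
  have hA : Z ≤ (1 + b ^ 4 / g) / 2 - e := by
    have h1 : W ^ 2 ≤ ((1 + b ^ 2) / 2) ^ 2 - (1 - b) ^ 2 / 8 := by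
      have : 0 ≤ (1 - b) ^ 2 := sq_nonneg _
      nlinarith
    have h2 : Z ≤ (((1 + b ^ 2) / 2) ^ 2 - (1 - b) ^ 2 / 8) / G := by
      rw [hZ]
      gcongr
    have h3 : (((1 + b ^ 2) / 2) ^ 2 - (1 - b) ^ 2 / 8) / G =
        ((1 + b ^ 2) / 2) ^ 2 / G - (1 - b) ^ 2 / 8 * (1 / G) := by ring
    have h4 : (1 - b) ^ 2 / 8 ≤ (1 - b) ^ 2 / 8 * (1 / G) :=
      le_mul_of_one_le_right (by positivity) hG2
    have h5 := titu_gap (b := b ^ 2) hg hg1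
    have h6 : (b ^ 2) ^ 2 / g = b ^ 4 / g := by ring
    rw [h6, ← hG] at h5
    rw [h3] at h2
    rw [he]
    linarith
  set m : ℝ := (1 + b ^ 4 / g) / 2 with hm
  have hm2 : 1 / 2 ≤ m := by rw [hm]; linarith
  have hB : Z ^ 2 ≤ m ^ 2 - e / 2 := by nlinarith
  have hC : Z ^ 2 / G ≤ (1 + b ^ 8 / g ^ 3) / 2 - e / 2 := by
    have h1 : Z ^ 2 / G ≤ (m ^ 2 - e / 2) / G := by gcongr
    have h2 : (m ^ 2 - e / 2) / G = m ^ 2 / G - e / 2 * (1 / G) := by ring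
    have h3 : e / 2 ≤ e / 2 * (1 / G) := le_mul_of_one_le_right (by positivity) hG2
    have h4 := titu (A := 1) (C := 1) (B := b ^ 4 / g) (D := g) one_pos hg
    have h5 : (b ^ 4 / g) ^ 2 / g = b ^ 8 / g ^ 3 := by
      field_simp
    rw [h5, one_pow, div_one] at h4
    rw [← hm, ← hG] at h4
    linarith
  have hD : ((1 + b) / 2) ^ 8 / G ^ 3 = Z ^ 2 / G := by
    rw [hZ, hW]
    field_simp
  rw [hD]
  have hE : (1 - b) ^ 2 / 32 + (1 - g) ^ 2 / 256 ≤ e / 2 := by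
    rw [he]
    have h1 : (1 - g) = (1 - b ^ 2) - (g - b ^ 2) := by ring
    have h2 : (1 - b ^ 2) ^ 2 ≤ 4 * (1 - b) ^ 2 := by
      have : (1 - b ^ 2) ^ 2 = (1 + b) ^ 2 * (1 - b) ^ 2 := by ring
      rw [this]
      apply mul_le_mul_of_nonneg_right _ (sq_nonneg _)
      nlinarith
    have h3 : (1 - g) ^ 2 ≤ 2 * (1 - b ^ 2) ^ 2 + 2 * (g - b ^ 2) ^ 2 := by
      nlinarith [sq_nonneg ((1 - b ^ 2) + (g - b ^ 2))]
    nlinarith [sq_nonneg (g - b ^ 2), sq_nonneg (1 - b)]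
  linarith

theorem mu_sq {a c : ℝ} (ha : 0 ≤ a) (hc : 0 ≤ c) :
    (max a (1 / 2 * c)) ^ 2 ≤ a ^ 2 + (a - c) ^ 2 := by
  rcases le_total (1 / 2 * c) a with h | h
  · rw [max_eq_left h]
    nlinarith [sq_nonneg (a - c)]
  · rw [max_eq_right h]
    nlinarith [sq_nonneg (a - c)]

/-- the case `g ≥ 1/2` -/
theorem case_one {v x y b g : ℝ} (hv : 0 ≤ v) (hb : 0 ≤ b) (hb1 : b ≤ 1)
    (h12 : 1 / 2 ≤ g) (hg1 : g ≤ 1) :
    v * (x + y) ^ 2 * b ^ 8 + 2 * v * x ^ 2 * (1 / ((1 + g) / 2) ^ 3) ≤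
      v * (x + y) ^ 2 * (b ^ 8 / g ^ 3) + 2 * v * x ^ 2 +
        v * (x ^ 2 * (96 * (1 - b) ^ 2 + 132 * (1 - g) ^ 2) + 16 * y ^ 2) := by
  have hg : 0 < g := by linarith
  have hb8 : b ^ 8 ≤ 1 := pow_le_one₀ hb hb1
  have hb80 : 0 ≤ b ^ 8 := by positivity
  have hx2 : 0 ≤ x ^ 2 := sq_nonneg x
  have hy2 : 0 ≤ y ^ 2 := sq_nonneg y
  obtain ⟨U, hU⟩ : ∃ U, U = 1 / g ^ 3 - 1 := ⟨_, rfl⟩
  have hζU : b ^ 8 / g ^ 3 = b ^ 8 * (1 + U) := by rw [hU]; ring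
  have hg3 : 0 < g ^ 3 := by positivity
  have hg38 : 1 / 8 ≤ g ^ 3 := by
    have h := pow_le_pow_left₀ (by norm_num : (0 : ℝ) ≤ 1 / 2) h12 3
    norm_num at h
    linarith
  have hU0 : 0 ≤ U := by
    rw [hU, sub_nonneg, le_div_iff₀ hg3]
    have h : g ^ 3 ≤ 1 := pow_le_one₀ hg.le hg1
    linarith
  have hU1 : U ≤ 24 * (1 - g) := by
    rw [hU, sub_le_iff_le_add, div_le_iff₀ hg3]
    nlinarith [mul_nonneg (sub_nonneg.2 hg1) (sub_nonneg.2 hg38), sq_nonneg (1 - g),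
      mul_nonneg (sub_nonneg.2 hg1) hg.le, mul_nonneg (sub_nonneg.2 hg1) (sq_nonneg (1 - g))]
  obtain ⟨D, hD⟩ : ∃ D, D = 1 / ((1 + g) / 2) ^ 3 := ⟨_, rfl⟩
  have hDU : 2 * D - 2 ≤ U := by
    have h1 : D ≤ (1 + 1 / g ^ 3) / 2 := by
      rw [hD, div_le_iff₀ (by positivity)]
      have h3 : (1 + 1 / g ^ 3) / 2 * ((1 + g) / 2) ^ 3 - 1 =
          (1 - g) ^ 2 * (1 + 5 * g + 12 * g ^ 2 + 5 * g ^ 3 + g ^ 4) / (16 * g ^ 3) -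
            (1 - g) ^ 2 * (6 * g ^ 2 * 0) / (16 * g ^ 3) := by
        field_simp
        ring
      have h4 : 0 ≤ (1 - g) ^ 2 * (1 + 5 * g + 12 * g ^ 2 + 5 * g ^ 3 + g ^ 4) /
          (16 * g ^ 3) := by positivity
      have h5 : (1 - g) ^ 2 * (6 * g ^ 2 * 0) / (16 * g ^ 3) = 0 := by ring
      linarith
    rw [hU]
    linarith
  have h8 : 1 - b ^ 8 ≤ 8 * (1 - b) := by
    have := one_add_mul_le_pow (by linarith : (-2 : ℝ) ≤ b - 1) 8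
    have h2 : (1 + (b - 1)) ^ 8 = b ^ 8 := by ring
    rw [h2] at this
    push_cast at this
    linarith
  rw [← hD, hζU]
  generalize b ^ 8 = c at *
  clear hD hU hζU hg38 hg3
  have hc1 : 0 ≤ 1 - c := by linarith
  obtain ⟨β, hβ⟩ : ∃ β, β = 1 - b := ⟨_, rfl⟩
  obtain ⟨δ, hδ⟩ : ∃ δ, δ = 1 - g := ⟨_, rfl⟩
  rw [← hβ] at h8 ⊢
  rw [← hδ] at hU1 ⊢
  have hβ0 : 0 ≤ β := by linarith
  have hδ0 : 0 ≤ δ := by linarith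
  clear hβ hδ hb hb1 h12 hg1 hg
  have hT1 : U * (1 - c) ≤ 96 * β ^ 2 + 96 * δ ^ 2 := by
    have h1 : U * (1 - c) ≤ 24 * δ * (8 * β) :=
      mul_le_mul hU1 h8 hc1 (by linarith)
    nlinarith [sq_nonneg (β - δ)]
  have hw0 : 0 ≤ c * U := mul_nonneg hb80 hU0
  have hw1 : c * U ≤ 24 * δ := by
    have := mul_le_mul_of_nonneg_right hb8 hU0
    linarith
  have hw2 : (c * U) ^ 2 ≤ (24 * δ) ^ 2 := pow_le_pow_left₀ hw0 hw1 2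
  have hT3 : -(2 * x * y * (c * U)) ≤ 36 * (x ^ 2 * δ ^ 2) + 16 * y ^ 2 := by
    have h4 : -(2 * x * y * (c * U)) ≤ x ^ 2 * (c * U) ^ 2 / 16 + 16 * y ^ 2 := by
      nlinarith [sq_nonneg (x * (c * U) / 4 + 4 * y)]
    have h5 := mul_le_mul_of_nonneg_left hw2 hx2
    linarith
  have hA := mul_le_mul_of_nonneg_left hT1 (mul_nonneg hv hx2)
  have hB := mul_le_mul_of_nonneg_left hT3 hv
  have hC := mul_le_mul_of_nonneg_left hDU (mul_nonneg hv hx2)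
  have hE : 0 ≤ v * (y ^ 2 * (c * U)) := by positivity
  linarith

/-- the case `g ≤ 1/2` -/
theorem case_two {v g : ℝ} (hv : 0 ≤ v) (hg : 0 < g) (x : ℝ) :
    2 * v * x ^ 2 * (1 / ((1 + g) / 2) ^ 3) ≤ 16 * (v * x ^ 2) := by
  have hD8 : 1 / ((1 + g) / 2) ^ 3 ≤ 8 := by
    rw [div_le_iff₀ (by positivity)]
    have : (1 / 2 : ℝ) ^ 3 ≤ ((1 + g) / 2) ^ 3 :=
      pow_le_pow_left₀ (by norm_num) (by linarith) 3
    linarith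
  have := mul_le_mul_of_nonneg_left hD8 (mul_nonneg hv (sq_nonneg x))
  linarith

theorem norm_ineq {p v r a c b g : ℝ} (hp : 0 ≤ p) (hpv : p ≤ v) (hr : 40000 * v ≤ r)
    (ha : 0 ≤ a) (hc : 0 ≤ c) (hb : 0 ≤ b) (hb1 : b ≤ 1) (hg : 0 < g) (hg1 : g ≤ 1) :
    p * (max a (1 / 2 * c)) ^ 2 + v * (max a (1 / 2 * c)) ^ 2 * (b ^ 8 / (min 1 (2 * g)) ^ 3) +
        2 * v * ((a + c) / 2) ^ 2 * (1 / ((1 + g) / 2) ^ 3) +
        r * ((a + c) / 2) ^ 2 * (((1 + b) / 2) ^ 8 / ((1 + g) / 2) ^ 3) ≤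
      p * a ^ 2 + v * a ^ 2 * (b ^ 8 / g ^ 3) + 2 * v * ((a ^ 2 + c ^ 2) / 2) +
        r * ((a ^ 2 + c ^ 2) / 2) * ((1 + b ^ 8 / g ^ 3) / 2) := by
  have hv : 0 ≤ v := hp.trans hpv
  have hr0 : 0 ≤ r := by linarith
  have hμ1 := mu_sq ha hc
  obtain ⟨μ, hμ⟩ : ∃ μ, μ = (max a (1 / 2 * c)) ^ 2 := ⟨_, rfl⟩
  rw [← hμ] at hμ1 ⊢
  obtain ⟨x, hx⟩ : ∃ x, x = (a + c) / 2 := ⟨_, rfl⟩
  obtain ⟨y, hy⟩ : ∃ y, y = (a - c) / 2 := ⟨_, rfl⟩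
  have hxy : (a ^ 2 + c ^ 2) / 2 = x ^ 2 + y ^ 2 := by rw [hx, hy]; ring
  have hay : a = x + y := by rw [hx, hy]; ring
  have hac : (a - c) ^ 2 = 4 * y ^ 2 := by rw [hy]; ring
  rw [hxy, ← hx]
  rw [hac] at hμ1
  have hζ0 : 0 ≤ b ^ 8 / g ^ 3 := by positivity
  have hgap := gap hb hb1 hg hg1
  obtain ⟨Q, hQ⟩ : ∃ Q, Q = ((1 + b) / 2) ^ 8 / ((1 + g) / 2) ^ 3 := ⟨_, rfl⟩
  rw [← hQ] at hgap ⊢
  have hx2 : 0 ≤ x ^ 2 := sq_nonneg x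
  have hy2 : 0 ≤ y ^ 2 := sq_nonneg y
  have hP : p * μ ≤ p * a ^ 2 + 4 * (v * y ^ 2) := by
    have h1 := mul_le_mul_of_nonneg_left hμ1 hp
    have h2 := mul_le_mul_of_nonneg_right hpv (by positivity : 0 ≤ 4 * y ^ 2)
    linarith
  have hR := mul_le_mul_of_nonneg_left hgap (mul_nonneg hr0 hx2)
  rcases le_total (1 / 2) g with h12 | h12
  · -- case `g ≥ 1/2`
    have hmin : min 1 (2 * g) = 1 := min_eq_left (by linarith)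
    rw [hmin, one_pow, div_one]
    have hcase := case_one (x := x) (y := y) hv hb hb1 h12 hg1
    rw [← hay] at hcase
    have hb8 : b ^ 8 ≤ 1 := pow_le_one₀ hb hb1
    have hb80 : 0 ≤ b ^ 8 := by positivity
    have hV : v * μ * b ^ 8 ≤ v * a ^ 2 * b ^ 8 + 4 * (v * y ^ 2) := by
      have h1 := mul_le_mul_of_nonneg_left hμ1 (mul_nonneg hv hb80)
      have h2 : v * y ^ 2 * b ^ 8 ≤ v * y ^ 2 := mul_le_of_le_one_right (by positivity) hb8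
      linarith
    generalize b ^ 8 / g ^ 3 = ζ at *
    generalize b ^ 8 = b8 at *
    generalize 1 / ((1 + g) / 2) ^ 3 = D at *
    obtain ⟨β2, hβ2⟩ : ∃ β2, β2 = (1 - b) ^ 2 := ⟨_, rfl⟩
    obtain ⟨δ2, hδ2⟩ : ∃ δ2, δ2 = (1 - g) ^ 2 := ⟨_, rfl⟩
    have hβ0 : 0 ≤ β2 := by rw [hβ2]; positivity
    have hδ0 : 0 ≤ δ2 := by rw [hδ2]; positivity
    rw [← hβ2, ← hδ2] at hcase hR
    have hG1 := mul_le_mul_of_nonneg_right hr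
      (by positivity : 0 ≤ x ^ 2 * (β2 / 32 + δ2 / 256))
    have hG2 := mul_le_mul_of_nonneg_right hr (by positivity : 0 ≤ y ^ 2 * ((1 + ζ) / 2))
    have n1 : 0 ≤ v * (x ^ 2 * β2) := by positivity
    have n2 : 0 ≤ v * (x ^ 2 * δ2) := by positivity
    have n3 : 0 ≤ v * y ^ 2 := by positivity
    have n4 : 0 ≤ v * (y ^ 2 * ζ) := by positivity
    linarith
  · -- case `g ≤ 1/2`
    have hmin : min 1 (2 * g) = 2 * g := min_eq_right (by linarith)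
    rw [hmin]
    have h1 : b ^ 8 / (2 * g) ^ 3 = b ^ 8 / g ^ 3 / 8 := by
      field_simp
      norm_num
    rw [h1]
    have h3 := case_two hv hg x
    generalize b ^ 8 / g ^ 3 = ζ at *
    have h2 : v * μ * (ζ / 8) ≤ v * a ^ 2 * ζ + v * (y ^ 2 * ζ) := by
      have h3 := mul_le_mul_of_nonneg_left hμ1 (mul_nonneg hv hζ0)
      have h4 : 0 ≤ v * ζ * a ^ 2 := by positivity
      have h5 : 0 ≤ v * ζ * y ^ 2 := by positivity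
      linarith
    generalize 1 / ((1 + g) / 2) ^ 3 = D at *
    obtain ⟨β2, hβ2⟩ : ∃ β2, β2 = (1 - b) ^ 2 := ⟨_, rfl⟩
    obtain ⟨δ2, hδ2⟩ : ∃ δ2, δ2 = (1 - g) ^ 2 := ⟨_, rfl⟩
    have hβ0 : 0 ≤ β2 := by rw [hβ2]; positivity
    have hδ0 : 1 / 4 ≤ δ2 := by rw [hδ2]; nlinarith
    rw [← hβ2, ← hδ2] at hR
    have hG1 := mul_le_mul_of_nonneg_right hr
      (by positivity : 0 ≤ x ^ 2 * (β2 / 32 + δ2 / 256))
    have hG2 := mul_le_mul_of_nonneg_right hr (by positivity : 0 ≤ y ^ 2 * ((1 + ζ) / 2))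
    have n1 : 0 ≤ v * (x ^ 2 * β2) := by positivity
    have n2 := mul_le_mul_of_nonneg_left hδ0 (mul_nonneg hv hx2)
    have n3 : 0 ≤ v * y ^ 2 := by positivity
    have n4 : 0 ≤ v * (y ^ 2 * ζ) := by positivity
    have n5 : 0 ≤ v * x ^ 2 := by positivity
    linarith

/-- The one-coordinate inequality. -/
theorem one_coord {p v r A₀ A₁ B₀ B₁ X₀ X₁ : ℝ} (hp : 0 ≤ p) (hpv : p ≤ v)
    (hr : 40000 * v ≤ r) (hA₀ : 0 ≤ A₀) (hA₁ : 0 ≤ A₁) (hB₀ : 0 < B₀) (hB₁ : 0 ≤ B₁)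
    (hB : B₁ ≤ B₀) (hX₀ : 0 < X₀) (hX₁ : 0 < X₁) (hX : X₁ ≤ X₀) :
    p * ((max A₀ (1 / 2 * A₁)) ^ 2 * (B₀ ^ 8 / X₀ ^ 3)) +
        v * ((max A₀ (1 / 2 * A₁)) ^ 2 * (B₁ ^ 8 / (min X₀ (2 * X₁)) ^ 3)) +
        2 * v * (((A₀ + A₁) / 2) ^ 2 * (B₀ ^ 8 / ((X₀ + X₁) / 2) ^ 3)) +
        r * (((A₀ + A₁) / 2) ^ 2 * (((B₀ + B₁) / 2) ^ 8 / ((X₀ + X₁) / 2) ^ 3)) ≤
      p * (A₀ ^ 2 * (B₀ ^ 8 / X₀ ^ 3)) + v * (A₀ ^ 2 * (B₁ ^ 8 / X₁ ^ 3)) +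
        2 * v * ((A₀ ^ 2 * (B₀ ^ 8 / X₀ ^ 3) + A₁ ^ 2 * (B₀ ^ 8 / X₀ ^ 3)) / 2) +
        r * ((A₀ ^ 2 * (B₀ ^ 8 / X₀ ^ 3) + A₁ ^ 2 * (B₀ ^ 8 / X₀ ^ 3) +
          A₀ ^ 2 * (B₁ ^ 8 / X₁ ^ 3) + A₁ ^ 2 * (B₁ ^ 8 / X₁ ^ 3)) / 4) := by
  obtain ⟨b, rfl⟩ : ∃ b, B₁ = B₀ * b := ⟨B₁ / B₀, by field_simp⟩
  obtain ⟨g, rfl⟩ : ∃ g, X₁ = X₀ * g := ⟨X₁ / X₀, by field_simp⟩
  have hb : 0 ≤ b := by
    by_contra h
    push Not at h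
    nlinarith [mul_pos hB₀ (neg_pos.2 h)]
  have hb1 : b ≤ 1 := by
    by_contra h
    push Not at h
    nlinarith [mul_lt_mul_of_pos_left h hB₀]
  have hg : 0 < g := pos_of_mul_pos_right hX₁ hX₀.le
  have hg1 : g ≤ 1 := by
    by_contra h
    push Not at h
    nlinarith [mul_lt_mul_of_pos_left h hX₀]
  have hN := norm_ineq hp hpv hr hA₀ hA₁ hb hb1 hg hg1
  set f : ℝ := B₀ ^ 8 / X₀ ^ 3 with hf
  have hf0 : 0 ≤ f := by positivity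
  have hmin : min X₀ (2 * (X₀ * g)) = X₀ * min 1 (2 * g) := by
    rw [mul_min_of_nonneg _ _ hX₀.le, mul_one]
    congr 1
    ring
  have hmp : 0 < min 1 (2 * g) := lt_min one_pos (by linarith)
  have e1 : (B₀ * b) ^ 8 / (min X₀ (2 * (X₀ * g))) ^ 3 = f * (b ^ 8 / (min 1 (2 * g)) ^ 3) := by
    rw [hmin, hf]
    field_simp
  have e2 : B₀ ^ 8 / ((X₀ + X₀ * g) / 2) ^ 3 = f * (1 / ((1 + g) / 2) ^ 3) := by
    have : (X₀ + X₀ * g) / 2 = X₀ * ((1 + g) / 2) := by ring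
    rw [this, hf]
    field_simp
  have e3 : ((B₀ + B₀ * b) / 2) ^ 8 / ((X₀ + X₀ * g) / 2) ^ 3 =
      f * (((1 + b) / 2) ^ 8 / ((1 + g) / 2) ^ 3) := by
    have h1 : (X₀ + X₀ * g) / 2 = X₀ * ((1 + g) / 2) := by ring
    have h2 : (B₀ + B₀ * b) / 2 = B₀ * ((1 + b) / 2) := by ring
    rw [h1, h2, hf]
    field_simp
  have e4 : (B₀ * b) ^ 8 / (X₀ * g) ^ 3 = f * (b ^ 8 / g ^ 3) := by
    rw [hf]
    field_simp
  rw [e1, e2, e3, e4]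
  have := mul_le_mul_of_nonneg_left hN hf0
  nlinarith [this]

end Vale.Agent.P331.H367
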